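import Vale.Agent.P021.R2.H542.NN

/-!
# Denominators divisible by a large power of 2: the restricted targets
-/

set_option autoImplicit false

open Filter

namespace Vale.Agent.P021.R2.H691

open Vale.Agent.P021.R2.H636 Vale.Agent.P021.R2.H542

/-- the bound at the prime 2 for denominators divisible by `2 ^ (v0 n)` -/
def TwoBoundR (K0 b0 f0 E0 v0 : ℕ) (c2 : ℝ) : Prop :=
  ∀ ε : ℝ, 0 < ε → ∀ᶠ n : ℕ in Filter.atTop, ∀ κ ≤ 2, ∀ p q : ℤ, 0 < q →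
    (2 : ℤ) ^ (v0 * n) ∣ q →
    NN (b0 * n) (f0 * n) (E0 * n) (K0 * n + κ) p q ≠ 0 →
    Real.log ((padicNorm 2 (NN (b0 * n) (f0 * n) (E0 * n) (K0 * n + κ) p q) : ℚ) : ℝ) ≤
      (c2 + ε) * (n : ℝ) ^ 2

/-- the arithmetic lower bound for denominators divisible by `2 ^ (v0 n)` -/
def ArithLowerR (K0 b0 f0 E0 v0 : ℕ) (c : ℝ) : Prop :=
  ∀ ε : ℝ, 0 < ε → ∀ᶠ n : ℕ in atTop, ∀ κ ≤ 2, ∀ p q : ℤ, 0 < q →
    (2 : ℤ) ^ (v0 * n) ∣ q →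
    (HM ((p : ℝ) / q) (b0 * n) (f0 * n) (E0 * n) (K0 * n + κ)).det ≠ 0 →
    Real.exp (-(c + ε) * (n : ℝ) ^ 2) ≤
      (q : ℝ) ^ (K0 * n + κ) *
        |(HM ((p : ℝ) / q) (b0 * n) (f0 * n) (E0 * n) (K0 * n + κ)).det|

end Vale.Agent.P021.R2.H691
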