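import Vale.Agent.P021.R2.H691.Digits

/-!
# Denominators `b ^ N` and digits in base `b`, from the bounds for even denominators
-/

set_option autoImplicit false

namespace Vale.Agent.P021.R2.H691

theorem bases {c d : ℕ} {μ : ℝ} (h : ∃ Q : ℝ, ∀ (p : ℤ) (q v : ℕ), Q < q → 2 ^ v ∣ q →
      q ^ c ≤ 2 ^ (d * v) → (q : ℝ) ^ (-μ) < |Real.pi - (p : ℝ) / (q : ℝ)|)
    (b v : ℕ) (hb : 2 ≤ b) (hd : 2 ^ v ∣ b) (hv : b ^ c ≤ 2 ^ (d * v)) :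
    ∃ M : ℕ, ∀ N : ℕ, M ≤ N →
      (∀ p : ℤ, ((b : ℝ) ^ N) ^ (-μ) < |Real.pi - (p : ℝ) / (b : ℝ) ^ N|) ∧
      (∃ k : ℕ, N < k ∧ (k : ℝ) < μ * N + 1 ∧ ⌊Real.pi * (b : ℝ) ^ k⌋ % (b : ℤ) ≠ 0) ∧
      (∃ k : ℕ, N < k ∧ (k : ℝ) < μ * N + 1 ∧ ⌊Real.pi * (b : ℝ) ^ k⌋ % (b : ℤ) ≠ b - 1) := by
  obtain ⟨Q, hQ⟩ := h
  obtain ⟨M, hM⟩ := pow_unbounded_of_one_lt Q (one_lt_two)
  refine ⟨M, fun N hN => ?_⟩
  have h1 : ∀ p : ℤ, ((b : ℝ) ^ N) ^ (-μ) < |Real.pi - (p : ℝ) / (b : ℝ) ^ N| := by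
    intro p
    have hQN : Q < ((b ^ N : ℕ) : ℝ) := by
      refine hM.trans_le ?_
      have h2 : (2 : ℕ) ^ M ≤ b ^ N :=
        (Nat.pow_le_pow_right (by norm_num) hN).trans (Nat.pow_le_pow_left hb N)
      exact_mod_cast h2
    have h3 := hQ p (b ^ N) (v * N) hQN (by rw [pow_mul]; exact pow_dvd_pow_of_dvd hd N) (by
      calc (b ^ N) ^ c = (b ^ c) ^ N := by rw [← pow_mul, ← pow_mul, mul_comm]
        _ ≤ (2 ^ (d * v)) ^ N := Nat.pow_le_pow_left hv N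
        _ = 2 ^ (d * (v * N)) := by rw [← pow_mul, mul_assoc])
    push_cast at h3
    exact h3
  obtain ⟨h4, h5⟩ := runs hb h1
  exact ⟨h1, h4, h5⟩

end Vale.Agent.P021.R2.H691
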