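import Vale.Agent.P021.Bdl.B1

/-!
# The core argument for restricted denominators
-/

set_option autoImplicit false

open Filter Topology

namespace Vale.Agent.P021.R2.H691

/-- the core argument for denominators divisible by a power of 2 -/
theorem core_boundR (D : ℕ → ℕ → ℝ → ℝ) (K0 v0 : ℕ) (hK0 : 0 < K0) (w c T ν : ℝ) (hw : 0 < w)
    (h1 : ∀ ε : ℝ, 0 < ε → ∀ᶠ n : ℕ in atTop, ∀ κ ≤ 2, ∀ p q : ℤ, 0 < q →
      (2 : ℤ) ^ (v0 * n) ∣ q → D n κ ((p : ℝ) / q) ≠ 0 →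
      Real.exp (-(c + ε) * (n : ℝ) ^ 2) ≤ (q : ℝ) ^ (K0 * n + κ) * |D n κ ((p : ℝ) / q)|)
    (h2 : ∀ ε : ℝ, 0 < ε → ∀ᶠ n : ℕ in atTop, ∀ κ ≤ 2, ∀ x : ℝ,
      |x - Real.pi| ≤ Real.exp (-w * n) → |D n κ x| ≤ Real.exp ((T + ε) * (n : ℝ) ^ 2))
    (h3 : ∀ n x, ∃ κ ≤ 2, D n κ x ≠ 0) (hν0 : 0 < ν) (hν : w * K0 < ν * (-T - c)) :
    ∃ Q : ℝ, ∀ p q : ℤ, 0 < q → Q < q →
      (2 : ℤ) ^ (v0 * ⌊ν * Real.log q / w⌋₊) ∣ q →
      (q : ℝ) ^ (-ν) < |Real.pi - (p : ℝ) / (q : ℝ)| := by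
  set δ : ℝ := -T - c with hδdef
  have hKpos : (0 : ℝ) < K0 := by exact_mod_cast hK0
  have hk : w * K0 / ν < δ := by
    rw [div_lt_iff₀ hν0]
    linarith only [hν, mul_comm δ ν]
  set ε : ℝ := (δ - w * K0 / ν) / 4 with hεdef
  have hε : 0 < ε := by rw [hεdef]; linarith only [hk]
  -- elementary inequality for large n
  have hA : ∀ᶠ n : ℕ in atTop, ((K0 : ℝ) * n + 2) * (w * (n + 1) / ν) < (δ - 2 * ε) * (n : ℝ) ^ 2 := by
    have hlim : Tendsto (fun n : ℕ => ((K0 : ℝ) + 2 * (1 / (n : ℝ))) * (w * (1 + 1 / (n : ℝ)) / ν))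
        atTop (𝓝 (((K0 : ℝ) + 2 * 0) * (w * (1 + 0) / ν))) := by
      have h0 := tendsto_one_div_atTop_nhds_zero_nat (𝕜 := ℝ)
      exact (tendsto_const_nhds.add (h0.const_mul 2)).mul
        (((tendsto_const_nhds.add h0).const_mul w).div_const ν)
    have hlt2 : ((K0 : ℝ) + 2 * 0) * (w * (1 + 0) / ν) < δ - 2 * ε := by
      have : ((K0 : ℝ) + 2 * 0) * (w * (1 + 0) / ν) = w * K0 / ν := by ring
      rw [this, hεdef]
      linarith only [hk]
    filter_upwards [hlim.eventually (gt_mem_nhds hlt2), eventually_gt_atTop 0] with n hn hn0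
    have hnR : (0 : ℝ) < n := by exact_mod_cast hn0
    have e : ((K0 : ℝ) * n + 2) * (w * (n + 1) / ν)
        = (((K0 : ℝ) + 2 * (1 / (n : ℝ))) * (w * (1 + 1 / (n : ℝ)) / ν)) * (n : ℝ) ^ 2 := by
      (clear * - hn0 hν0 hw hK0; field_simp)
    rw [e]
    exact mul_lt_mul_of_pos_right hn (by (clear * - hn0; positivity))
  obtain ⟨N1, hN1⟩ := eventually_atTop.mp (hA.and ((h1 ε hε).and (h2 ε hε)))
  refine ⟨Real.exp (w * (N1 + 1) / ν), fun p q hqZ hqQ hdvd => ?_⟩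
  by_contra hpq
  push Not at hpq
  have hq0 : (0 : ℝ) < q := by exact_mod_cast hqZ
  have hlog : w * (N1 + 1) / ν < Real.log q := (Real.lt_log_iff_exp_lt hq0).mpr hqQ
  set n : ℕ := ⌊ν * Real.log q / w⌋₊ with hndef
  have hlogpos : 0 < Real.log q := lt_of_le_of_lt (by (clear * - hw hν0; positivity)) hlog
  have hn1 : (n : ℝ) ≤ ν * Real.log q / w := Nat.floor_le (by (clear * - hν0 hlogpos hw; positivity))
  have hn2 : ν * Real.log q / w < n + 1 := Nat.lt_floor_add_one _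
  have hnN : N1 ≤ n := by
    rw [div_lt_iff₀ hν0] at hlog
    apply Nat.le_floor
    rw [le_div_iff₀ hw]
    nlinarith only [hw, hlog]
  obtain ⟨hA', hB', hC'⟩ := hN1 n hnN
  obtain ⟨κ, hκ, hne⟩ := h3 n ((p : ℝ) / q)
  have hclose : |(p : ℝ) / q - Real.pi| ≤ Real.exp (-w * n) := by
    rw [abs_sub_comm]
    refine hpq.trans ?_
    rw [Real.rpow_def_of_pos hq0]
    apply Real.exp_le_exp.mpr
    rw [le_div_iff₀ hw] at hn1
    nlinarith only [hn1]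
  have hlow := hB' κ hκ p q hqZ hdvd hne
  have hup := hC' κ hκ _ hclose
  have hq1 : (1 : ℝ) ≤ q := by
    have : (1 : ℤ) ≤ q := by omega
    exact_mod_cast this
  have h5 : Real.exp (-(c + ε) * (n : ℝ) ^ 2) ≤
      Real.exp (((K0 : ℝ) * n + 2) * Real.log q) * Real.exp ((T + ε) * (n : ℝ) ^ 2) := by
    refine hlow.trans (mul_le_mul ?_ hup (abs_nonneg _) (Real.exp_pos _).le)
    calc (q : ℝ) ^ (K0 * n + κ) ≤ (q : ℝ) ^ (K0 * n + 2) := pow_le_pow_right₀ hq1 (by omega)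
      _ = Real.exp (((K0 : ℝ) * n + 2) * Real.log q) := by
        rw [← Real.exp_log (pow_pos hq0 (K0 * n + 2)), Real.log_pow]
        push_cast
        rfl
  rw [← Real.exp_add, Real.exp_le_exp] at h5
  have h6 : Real.log q ≤ w * (n + 1) / ν := by
    rw [le_div_iff₀ hν0]
    rw [div_lt_iff₀ hw] at hn2
    linarith only [hn2]
  have h7 : ((K0 : ℝ) * n + 2) * Real.log q ≤ ((K0 : ℝ) * n + 2) * (w * (n + 1) / ν) :=
    mul_le_mul_of_nonneg_left h6 (by (clear * - hK0; positivity))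
  have h8 : (δ - 2 * ε) * (n : ℝ) ^ 2 ≤ ((K0 : ℝ) * n + 2) * Real.log q := by
    rw [hδdef]
    nlinarith only [h5]
  linarith only [hA', h5, h7]

end Vale.Agent.P021.R2.H691
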