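import Mathlib

/-!
# Runs of equal digits and rational approximations with denominators `b ^ m`
-/

set_option autoImplicit false

namespace Vale.Agent.P021.R2.H691

/-- the `k`-th digit of `x` in base `b` (`k ≥ 1`: digits after the point) -/
noncomputable def digit (x : ℝ) (b k : ℕ) : ℤ := ⌊x * (b : ℝ) ^ k⌋ % (b : ℤ)

theorem floor_succ (x : ℝ) (b k : ℕ) (hb : 0 < b) :
    ⌊x * (b : ℝ) ^ (k + 1)⌋ = b * ⌊x * (b : ℝ) ^ k⌋ + digit x b (k + 1) := by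
  have hbR : (0 : ℝ) < b := by exact_mod_cast hb
  have hbZ : (0 : ℤ) < b := by exact_mod_cast hb
  have h1 : ⌊x * (b : ℝ) ^ (k + 1)⌋ / (b : ℤ) = ⌊x * (b : ℝ) ^ k⌋ := by
    have e : x * (b : ℝ) ^ (k + 1) = b * (x * (b : ℝ) ^ k) := by rw [pow_succ]; ring
    have h2 : (b : ℤ) * ⌊x * (b : ℝ) ^ k⌋ ≤ ⌊x * (b : ℝ) ^ (k + 1)⌋ := by
      rw [Int.le_floor, e]
      push_cast
      exact mul_le_mul_of_nonneg_left (Int.floor_le _) hbR.le
    have h3 : ⌊x * (b : ℝ) ^ (k + 1)⌋ < (b : ℤ) * ⌊x * (b : ℝ) ^ k⌋ + b := by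
      rw [Int.floor_lt, e]
      push_cast
      have h4 := mul_lt_mul_of_pos_left (Int.lt_floor_add_one (x * (b : ℝ) ^ k)) hbR
      linarith
    have h5 := Int.emod_nonneg (⌊x * (b : ℝ) ^ (k + 1)⌋) hbZ.ne'
    have h6 := Int.emod_lt_of_pos (⌊x * (b : ℝ) ^ (k + 1)⌋) hbZ
    have h7 := Int.mul_ediv_add_emod (⌊x * (b : ℝ) ^ (k + 1)⌋) b
    have h8 : (b : ℤ) * (⌊x * (b : ℝ) ^ (k + 1)⌋ / b) < b * (⌊x * (b : ℝ) ^ k⌋ + 1) := by linarith
    have h9 : (b : ℤ) * ⌊x * (b : ℝ) ^ k⌋ < b * (⌊x * (b : ℝ) ^ (k + 1)⌋ / b + 1) := by linarith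
    have h10 := lt_of_mul_lt_mul_left h8 hbZ.le
    have h11 := lt_of_mul_lt_mul_left h9 hbZ.le
    omega
  unfold digit
  rw [← h1]
  exact (Int.mul_ediv_add_emod _ _).symm

/-- a run of digits `0` at the positions `N < k ≤ N + L` -/
theorem run_zero (x : ℝ) (b N : ℕ) (hb : 0 < b) : ∀ L : ℕ,
    (∀ k, N < k → k ≤ N + L → digit x b k = 0) →
    |x - (⌊x * (b : ℝ) ^ N⌋ : ℝ) / (b : ℝ) ^ N| ≤ 1 / (b : ℝ) ^ (N + L) := by
  have hbR : (0 : ℝ) < b := by exact_mod_cast hb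
  have key : ∀ L : ℕ, (∀ k, N < k → k ≤ N + L → digit x b k = 0) →
      ⌊x * (b : ℝ) ^ (N + L)⌋ = (b : ℤ) ^ L * ⌊x * (b : ℝ) ^ N⌋ := by
    intro L
    induction L with
    | zero => intro _; simp
    | succ L ih =>
      intro h
      have h1 := ih fun k hk1 hk2 => h k hk1 (by omega)
      have h2 := floor_succ x b (N + L) hb
      rw [h (N + L + 1) (by omega) (by omega), add_zero, h1] at h2
      rw [← Nat.add_assoc, h2, pow_succ]
      ring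
  intro L h
  have h1 := key L h
  have h2 := Int.floor_le (x * (b : ℝ) ^ (N + L))
  have h3 := Int.lt_floor_add_one (x * (b : ℝ) ^ (N + L))
  have hR : ((⌊x * (b : ℝ) ^ (N + L)⌋ : ℤ) : ℝ) = (b : ℝ) ^ L * (⌊x * (b : ℝ) ^ N⌋ : ℝ) := by
    rw [h1]; push_cast; ring
  rw [hR] at h2 h3
  have hp : (0 : ℝ) < (b : ℝ) ^ (N + L) := by positivity
  have e : x - (⌊x * (b : ℝ) ^ N⌋ : ℝ) / (b : ℝ) ^ N =
      (x * (b : ℝ) ^ (N + L) - (b : ℝ) ^ L * (⌊x * (b : ℝ) ^ N⌋ : ℝ)) / (b : ℝ) ^ (N + L) := by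
    rw [pow_add]
    field_simp
  rw [e, abs_div, abs_of_pos hp]
  refine div_le_div_of_nonneg_right ?_ hp.le
  rw [abs_le]
  constructor <;> linarith

/-- a run of digits `b - 1` at the positions `N < k ≤ N + L` -/
theorem run_nine (x : ℝ) (b N : ℕ) (hb : 0 < b) : ∀ L : ℕ,
    (∀ k, N < k → k ≤ N + L → digit x b k = b - 1) →
    |x - ((⌊x * (b : ℝ) ^ N⌋ + 1 : ℤ) : ℝ) / (b : ℝ) ^ N| ≤ 1 / (b : ℝ) ^ (N + L) := by
  have hbR : (0 : ℝ) < b := by exact_mod_cast hb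
  have key : ∀ L : ℕ, (∀ k, N < k → k ≤ N + L → digit x b k = b - 1) →
      ⌊x * (b : ℝ) ^ (N + L)⌋ + 1 = (b : ℤ) ^ L * (⌊x * (b : ℝ) ^ N⌋ + 1) := by
    intro L
    induction L with
    | zero => intro _; simp
    | succ L ih =>
      intro h
      have h1 := ih fun k hk1 hk2 => h k hk1 (by omega)
      have h2 := floor_succ x b (N + L) hb
      rw [h (N + L + 1) (by omega) (by omega)] at h2
      rw [← Nat.add_assoc, h2, pow_succ, mul_assoc, mul_comm (b : ℤ) (⌊x * (b : ℝ) ^ N⌋ + 1),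
        ← mul_assoc, ← h1]
      ring
  intro L h
  have h1 := key L h
  have h2 := Int.floor_le (x * (b : ℝ) ^ (N + L))
  have h3 := Int.lt_floor_add_one (x * (b : ℝ) ^ (N + L))
  have hR : ((⌊x * (b : ℝ) ^ (N + L)⌋ : ℤ) : ℝ) + 1 =
      (b : ℝ) ^ L * ((⌊x * (b : ℝ) ^ N⌋ + 1 : ℤ) : ℝ) := by
    have h4 : (((⌊x * (b : ℝ) ^ (N + L)⌋ + 1 : ℤ)) : ℝ) =
      (((b : ℤ) ^ L * (⌊x * (b : ℝ) ^ N⌋ + 1) : ℤ) : ℝ) := by rw [h1]
    push_cast at h4 ⊢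
    exact h4
  have hp : (0 : ℝ) < (b : ℝ) ^ (N + L) := by positivity
  have e : x - ((⌊x * (b : ℝ) ^ N⌋ + 1 : ℤ) : ℝ) / (b : ℝ) ^ N =
      (x * (b : ℝ) ^ (N + L) - (b : ℝ) ^ L * ((⌊x * (b : ℝ) ^ N⌋ + 1 : ℤ) : ℝ)) /
        (b : ℝ) ^ (N + L) := by
    rw [pow_add]
    field_simp
  rw [e, abs_div, abs_of_pos hp, ← hR]
  refine div_le_div_of_nonneg_right ?_ hp.le
  rw [abs_le]
  constructor <;> linarith

/-- from approximations with denominators `b ^ N` to runs of digits -/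
theorem runs {x : ℝ} {b : ℕ} (hb : 2 ≤ b) {μ : ℝ} {N : ℕ}
    (h : ∀ p : ℤ, ((b : ℝ) ^ N) ^ (-μ) < |x - (p : ℝ) / (b : ℝ) ^ N|) :
    (∃ k : ℕ, N < k ∧ (k : ℝ) < μ * N + 1 ∧ digit x b k ≠ 0) ∧
    (∃ k : ℕ, N < k ∧ (k : ℝ) < μ * N + 1 ∧ digit x b k ≠ b - 1) := by
  have hb0 : 0 < b := by omega
  have hbR : (1 : ℝ) < b := by exact_mod_cast (by omega : 1 < b)
  have hb0R : (0 : ℝ) < b := by linarith
  -- the length of the run
  have main : ∀ (D : ℤ) (P : ℤ), (∀ L : ℕ, (∀ k, N < k → k ≤ N + L → digit x b k = D) →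
      |x - (P : ℝ) / (b : ℝ) ^ N| ≤ 1 / (b : ℝ) ^ (N + L)) →
      ∃ k : ℕ, N < k ∧ (k : ℝ) < μ * N + 1 ∧ digit x b k ≠ D := by
    intro D P hP
    by_contra hcon
    push Not at hcon
    have hL : ∃ L : ℕ, μ * N ≤ ((N + L : ℕ) : ℝ) ∧ ∀ k, N < k → k ≤ N + L → (k : ℝ) < μ * N + 1 := by
      rcases le_or_gt (μ * N) N with h1 | h1
      · exact ⟨0, by simpa using h1, fun k hk1 hk2 => by omega⟩
      · refine ⟨⌈μ * N⌉₊ - N, ?_, fun k hk1 hk2 => ?_⟩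
        · have h2 : N ≤ ⌈μ * N⌉₊ := by
            have := (Nat.lt_ceil (n := N) (a := μ * N)).2 h1
            omega
          rw [Nat.add_sub_cancel' h2]
          exact Nat.le_ceil _
        · have h2 : N ≤ ⌈μ * N⌉₊ := by
            have := (Nat.lt_ceil (n := N) (a := μ * N)).2 h1
            omega
          rw [Nat.add_sub_cancel' h2] at hk2
          have h3 : (k : ℝ) ≤ (⌈μ * N⌉₊ : ℝ) := by exact_mod_cast hk2
          have h4 := Nat.ceil_lt_add_one (a := μ * N) (by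
            have : (0 : ℝ) ≤ N := Nat.cast_nonneg N
            linarith)
          linarith
    obtain ⟨L, hL1, hL2⟩ := hL
    have h1 := hP L fun k hk1 hk2 => hcon k hk1 (hL2 k hk1 hk2)
    have h2 := h P
    have h3 : 1 / (b : ℝ) ^ (N + L) ≤ ((b : ℝ) ^ N) ^ (-μ) := by
      rw [← Real.rpow_natCast (b : ℝ) N, ← Real.rpow_mul hb0R.le, one_div,
        ← Real.rpow_natCast (b : ℝ) (N + L), ← Real.rpow_neg hb0R.le]
      refine Real.rpow_le_rpow_of_exponent_le hbR.le ?_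
      linarith
    linarith
  refine ⟨main 0 ⌊x * (b : ℝ) ^ N⌋ fun L hL => run_zero x b N hb0 L hL,
    main (b - 1) (⌊x * (b : ℝ) ^ N⌋ + 1) fun L hL => run_nine x b N hb0 L hL⟩

end Vale.Agent.P021.R2.H691
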