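import Vale.Agent.P021.R2.H691.Gen
import Vale.Agent.P021.R2.H626.Cert
import Vale.Agent.P021.R2.H626.Final
import Vale.Agent.P021.R2.H120.TwoR

/-!
# Restricted denominators: the constants
-/

set_option autoImplicit false

namespace Vale.Agent.P021.R2.H691

open Vale.Agent.P021.Det (cu)
open Vale.Agent.P021.R2.H636 Vale.Agent.P021.R2.H542 Vale.Agent.P021.R2.H120

theorem arithR (v0 : ℕ) (hv : 2 * v0 ≤ 784000) : ArithLowerR 384000 336000 656000 448000 v0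
    (69739 / 60 * 16000 ^ 2 + (784000 - 2 * (v0 : ℝ)) ^ 2 / 24 * Real.log 2) := by
  have hT := twoBoundR 384000 336000 656000 448000 v0 (by omega)
  have h := arithLower_winR 384000 336000 656000 448000 v0 hT (by norm_num) 275200 288000
    (896000 / 3) 328000 336000 344000
    (by norm_num) (by norm_num) (by norm_num) (by norm_num) (by norm_num) (by norm_num)
    (by norm_num)
  have e := Vale.Agent.P021.R2.H626.cwin_val
  norm_num at h e ⊢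
  rw [e] at h
  exact h

theorem main (v0 a b : ℕ) (ν : ℝ) (hv : 2 * v0 ≤ 784000) (hν0 : 0 < ν) (ha : 0 < a)
    (h1 : (v0 : ℝ) * ν * b * 2 ^ 20 ≤ a * 5489559354084)
    (h2 : 5489559354084 * 384000 < ν * (1723423379991074000 / 2 -
      (69739 / 60 * 16000 ^ 2 / 0.6931471803 + (784000 - 2 * (v0 : ℝ)) ^ 2 / 24) * 2 ^ 20)) :
    ∃ Q : ℝ, ∀ (p : ℤ) (q v : ℕ), Q < q → 2 ^ v ∣ q → (v0 = 0 ∨ q ^ a ≤ 2 ^ (b * v)) →
      (q : ℝ) ^ (-ν) < |Real.pi - (p : ℝ) / (q : ℝ)| := by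
  have hl := Real.log_two_gt_d9
  have hl2 : 0 < Real.log 2 := Real.log_pos (by norm_num)
  have hU := Vale.Agent.P021.R2.H626.archUpper
  refine gen (W := ((5489559354084 : ℤ) : ℝ)) (T := ((-1723423379991074000 : ℤ) : ℝ) / 2 * cu)
    (v0 := v0) (by norm_num) (by norm_num) (by norm_num) (arithR v0 hv) hU nonVan hν0 ha
    (by push_cast; linarith) ?_
  have hcu : 0 < cu := by unfold cu; positivity
  have e1 : Real.log 2 = 2 ^ 20 * cu := by unfold cu; field_simp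
  have e2 : (69739 / 60 * 16000 ^ 2 : ℝ) ≤ 69739 / 60 * 16000 ^ 2 / 0.6931471803 * Real.log 2 := by
    have h5 : (69739 / 60 * 16000 ^ 2 / 0.6931471803 * 0.6931471803 : ℝ) ≤
        69739 / 60 * 16000 ^ 2 / 0.6931471803 * Real.log 2 :=
      mul_le_mul_of_nonneg_left hl.le (by norm_num)
    have h6 : (69739 / 60 * 16000 ^ 2 / 0.6931471803 * 0.6931471803 : ℝ) =
        69739 / 60 * 16000 ^ 2 := by norm_num
    rw [h6] at h5
    exact h5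
  have h3 := mul_lt_mul_of_pos_right h2 hcu
  have h4 : ν * (-(((-1723423379991074000 : ℤ) : ℝ) / 2 * cu) -
      (69739 / 60 * 16000 ^ 2 / 0.6931471803 * Real.log 2 +
        (784000 - 2 * (v0 : ℝ)) ^ 2 / 24 * Real.log 2)) ≤
      ν * (-(((-1723423379991074000 : ℤ) : ℝ) / 2 * cu) -
      (69739 / 60 * 16000 ^ 2 + (784000 - 2 * (v0 : ℝ)) ^ 2 / 24 * Real.log 2)) :=
    mul_le_mul_of_nonneg_left (by linarith) hν0.le
  refine lt_of_lt_of_le ?_ h4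
  rw [e1]
  push_cast
  refine lt_of_eq_of_lt ?_ (lt_of_lt_of_eq h3 ?_)
  · ring
  · ring

theorem main' (v0 a b : ℕ) (ν : ℝ) (hv : 2 * v0 ≤ 784000) (hν0 : 0 < ν) (ha : 0 < a)
    (h1 : (v0 : ℝ) * ν * b * 2 ^ 20 ≤ a * 5489559354084)
    (h2 : 5489559354084 * 384000 < ν * (1723423379991074000 / 2 -
      (69739 / 60 * 16000 ^ 2 / 0.6931471803 + (784000 - 2 * (v0 : ℝ)) ^ 2 / 24) * 2 ^ 20)) :
    ∃ Q : ℝ, ∀ (p : ℤ) (q v : ℕ), Q < q → 2 ^ v ∣ q → q ^ a ≤ 2 ^ (b * v) →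
      (q : ℝ) ^ (-ν) < |Real.pi - (p : ℝ) / (q : ℝ)| := by
  obtain ⟨Q, hQ⟩ := main v0 a b ν hv hν0 ha h1 h2
  exact ⟨Q, fun p q v hq hd hle => hQ p q v hq hd (Or.inr hle)⟩

/-- `q^2 ≤ 2^(5v)` -/
theorem t25 : ∃ Q : ℝ, ∀ (p : ℤ) (q v : ℕ), Q < q → 2 ^ v ∣ q → q ^ 2 ≤ 2 ^ (5 * v) →
    (q : ℝ) ^ (-(5.122 : ℝ)) < |Real.pi - (p : ℝ) / (q : ℝ)| :=
  main' 392000 2 5 5.122 (by norm_num) (by norm_num) (by norm_num) (by norm_num) (by norm_num)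

/-- `q^3 ≤ 2^(10v)` -/
theorem t310 : ∃ Q : ℝ, ∀ (p : ℤ) (q v : ℕ), Q < q → 2 ^ v ∣ q → q ^ 3 ≤ 2 ^ (10 * v) →
    (q : ℝ) ^ (-(5.14 : ℝ)) < |Real.pi - (p : ℝ) / (q : ℝ)| :=
  main' 305500 3 10 5.14 (by norm_num) (by norm_num) (by norm_num) (by norm_num) (by norm_num)

/-- `q ≤ 2^(5v)` -/
theorem t15 : ∃ Q : ℝ, ∀ (p : ℤ) (q v : ℕ), Q < q → 2 ^ v ∣ q → q ^ 1 ≤ 2 ^ (5 * v) →
    (q : ℝ) ^ (-(5.203 : ℝ)) < |Real.pi - (p : ℝ) / (q : ℝ)| :=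
  main' 201200 1 5 5.203 (by norm_num) (by norm_num) (by norm_num) (by norm_num) (by norm_num)

/-- `q ≤ 2^(10v)` -/
theorem t110 : ∃ Q : ℝ, ∀ (p : ℤ) (q v : ℕ), Q < q → 2 ^ v ∣ q → q ^ 1 ≤ 2 ^ (10 * v) →
    (q : ℝ) ^ (-(5.317 : ℝ)) < |Real.pi - (p : ℝ) / (q : ℝ)| :=
  main' 98400 1 10 5.317 (by norm_num) (by norm_num) (by norm_num) (by norm_num) (by norm_num)

/-- `q ≤ 2^(15v)` -/
theorem t115 : ∃ Q : ℝ, ∀ (p : ℤ) (q v : ℕ), Q < q → 2 ^ v ∣ q → q ^ 1 ≤ 2 ^ (15 * v) →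
    (q : ℝ) ^ (-(5.366 : ℝ)) < |Real.pi - (p : ℝ) / (q : ℝ)| :=
  main' 65000 1 15 5.366 (by norm_num) (by norm_num) (by norm_num) (by norm_num) (by norm_num)

/-- `q ≤ 2^(80v)` -/
theorem t180 : ∃ Q : ℝ, ∀ (p : ℤ) (q v : ℕ), Q < q → 2 ^ v ∣ q → q ^ 1 ≤ 2 ^ (80 * v) →
    (q : ℝ) ^ (-(5.4564 : ℝ)) < |Real.pi - (p : ℝ) / (q : ℝ)| :=
  main' 11990 1 80 5.4564 (by norm_num) (by norm_num) (by norm_num) (by norm_num) (by norm_num)

/-- `q ≤ 2^(500v)` -/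
theorem t1500 : ∃ Q : ℝ, ∀ (p : ℤ) (q v : ℕ), Q < q → 2 ^ v ∣ q → q ^ 1 ≤ 2 ^ (500 * v) →
    (q : ℝ) ^ (-(5.4756 : ℝ)) < |Real.pi - (p : ℝ) / (q : ℝ)| :=
  main' 1912 1 500 5.4756 (by norm_num) (by norm_num) (by norm_num) (by norm_num) (by norm_num)

/-- all denominators -/
theorem tall : ∃ Q : ℝ, ∀ (p : ℤ) (q : ℕ), Q < q →
    (q : ℝ) ^ (-(5.4793 : ℝ)) < |Real.pi - (p : ℝ) / (q : ℝ)| := by
  obtain ⟨Q, hQ⟩ := main 0 1 0 5.4793 (by norm_num) (by norm_num) (by norm_num) (by norm_num)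
    (by norm_num)
  exact ⟨Q, fun p q hq => hQ p q 0 hq (by simp) (Or.inl rfl)⟩

theorem compare {q v a b : ℕ} {κ μ : ℝ} (hq : 1 ≤ q) (hb : 0 < b) (hκ : 0 ≤ κ)
    (h : 2 ^ (b * v) ≤ q ^ a) (h2 : κ * a ≤ b * (5.48 - μ)) :
    (q : ℝ) ^ (-(5.48 : ℝ)) * 2 ^ (κ * (v : ℝ)) ≤ (q : ℝ) ^ (-μ) := by
  have hq1 : (1 : ℝ) ≤ q := by exact_mod_cast hq
  have hq0 : (0 : ℝ) < q := by linarith
  have hbR : (0 : ℝ) < b := by exact_mod_cast hb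
  have h3 : ((2 : ℝ) ^ (b * v)) ≤ (q : ℝ) ^ a := by exact_mod_cast h
  have h4 : (2 : ℝ) ^ (κ * (v : ℝ)) ≤ (q : ℝ) ^ (5.48 - μ) := by
    calc (2 : ℝ) ^ (κ * (v : ℝ)) = ((2 : ℝ) ^ (b * v)) ^ (κ / b) := by
          rw [← Real.rpow_natCast (2 : ℝ) (b * v), ← Real.rpow_mul (by norm_num)]
          congr 1
          push_cast
          field_simp
      _ ≤ ((q : ℝ) ^ a) ^ (κ / b) := Real.rpow_le_rpow (by positivity) h3 (by positivity)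
      _ = (q : ℝ) ^ ((a : ℝ) * (κ / b)) := by
          rw [← Real.rpow_natCast (q : ℝ) a, ← Real.rpow_mul hq0.le]
      _ ≤ (q : ℝ) ^ (5.48 - μ) := by
          refine Real.rpow_le_rpow_of_exponent_le hq1 ?_
          rw [← mul_div_assoc, div_le_iff₀ hbR]
          linarith
  calc (q : ℝ) ^ (-(5.48 : ℝ)) * 2 ^ (κ * (v : ℝ)) ≤
      (q : ℝ) ^ (-(5.48 : ℝ)) * (q : ℝ) ^ (5.48 - μ) :=
        mul_le_mul_of_nonneg_left h4 (by positivity)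
    _ = (q : ℝ) ^ (-μ) := by
        rw [← Real.rpow_add hq0]
        congr 1
        ring

/-- the uniform inequality: every factor 2 of the denominator improves the bound -/
theorem uniform : ∃ Q : ℝ, ∀ (p : ℤ) (q v : ℕ), Q < q → 2 ^ v ∣ q →
    (q : ℝ) ^ (-(5.48 : ℝ)) * 2 ^ (0.35 * (v : ℝ)) < |Real.pi - (p : ℝ) / (q : ℝ)| := by
  obtain ⟨Q0, h0⟩ := tall
  obtain ⟨Q1, h1⟩ := t1500
  obtain ⟨Q2, h2⟩ := t180
  obtain ⟨Q3, h3⟩ := t115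
  obtain ⟨Q4, h4⟩ := t310
  obtain ⟨Q5, h5⟩ := t25
  refine ⟨max 1 (max Q0 (max Q1 (max Q2 (max Q3 (max Q4 Q5))))), fun p q v hq hd => ?_⟩
  simp only [max_lt_iff] at hq
  obtain ⟨hq1, g0, g1, g2, g3, g4, g5⟩ := hq
  have hqn : 1 ≤ q := by
    have : (1 : ℝ) ≤ q := hq1.le
    exact_mod_cast this
  have hle : 2 ^ v ≤ q := Nat.le_of_dvd (by omega) hd
  rcases le_or_gt (q ^ 2) (2 ^ (5 * v)) with c5 | c5
  · refine lt_of_le_of_lt ?_ (h5 p q v g5 hd c5)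
    exact compare (a := 1) (b := 1) hqn (by norm_num) (by norm_num) (by simpa using hle)
      (by norm_num)
  rcases le_or_gt (q ^ 3) (2 ^ (10 * v)) with c4 | c4
  · refine lt_of_le_of_lt ?_ (h4 p q v g4 hd c4)
    exact compare (a := 2) (b := 5) hqn (by norm_num) (by norm_num) c5.le (by norm_num)
  rcases le_or_gt (q ^ 1) (2 ^ (15 * v)) with c3 | c3
  · refine lt_of_le_of_lt ?_ (h3 p q v g3 hd c3)
    exact compare (a := 3) (b := 10) hqn (by norm_num) (by norm_num) c4.le (by norm_num)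
  rcases le_or_gt (q ^ 1) (2 ^ (80 * v)) with c2 | c2
  · refine lt_of_le_of_lt ?_ (h2 p q v g2 hd c2)
    exact compare (a := 1) (b := 15) hqn (by norm_num) (by norm_num) c3.le (by norm_num)
  rcases le_or_gt (q ^ 1) (2 ^ (500 * v)) with c1 | c1
  · refine lt_of_le_of_lt ?_ (h1 p q v g1 hd c1)
    exact compare (a := 1) (b := 80) hqn (by norm_num) (by norm_num) c2.le (by norm_num)
  · refine lt_of_le_of_lt ?_ (h0 p q g0)
    exact compare (a := 1) (b := 500) hqn (by norm_num) (by norm_num) c1.le (by norm_num)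

end Vale.Agent.P021.R2.H691
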