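import Vale.Agent.P021.R2.H691.Core
import Vale.Agent.P021.R2.H691.Arith
import Vale.Agent.P021.R2.H636.NonVan

/-!
# Restricted denominators: the general assembly
-/

set_option autoImplicit false

namespace Vale.Agent.P021.R2.H691

open Vale.Agent.P021.Det (cu)
open Vale.Agent.P021.R2.H636 Vale.Agent.P021.R2.H542
open Filter Topology

/-- numerators, denominators divisible by `2 ^ v` with `q ^ a ≤ 2 ^ (b v)` -/
theorem gen {K0 b0 f0 E0 v0 a b : ℕ} {W : ℝ} {c T ν : ℝ} (hK0 : 0 < K0) (hW : 0 < W)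
    (hE : 2 * E0 ≤ b0 + f0) (h1 : ArithLowerR K0 b0 f0 E0 v0 c)
    (h2 : ArchUpper K0 b0 f0 E0 (W * cu) T) (h3 : NonVan) (hν0 : 0 < ν) (ha : 0 < a)
    (hv : (v0 : ℝ) * ν * b * 2 ^ 20 ≤ a * W)
    (hν : W * cu * K0 < ν * (-T - c)) :
    ∃ Q : ℝ, ∀ (p : ℤ) (q v : ℕ), Q < q → 2 ^ v ∣ q → (v0 = 0 ∨ q ^ a ≤ 2 ^ (b * v)) →
      (q : ℝ) ^ (-ν) < |Real.pi - (p : ℝ) / (q : ℝ)| := by
  have hl2 : 0 < Real.log 2 := Real.log_pos (by norm_num)
  have hcu : 0 < cu := by unfold cu; positivity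
  have hw : 0 < W * cu := mul_pos hW hcu
  obtain ⟨Q, hQ⟩ := core_boundR
    (fun n κ x => (HM x (b0 * n) (f0 * n) (E0 * n) (K0 * n + κ)).det) K0 v0 hK0 (W * cu) c T ν hw
    h1 h2 (fun n x => h3 x (b0 * n) (f0 * n) (E0 * n) (K0 * n) (by
      have : 2 * E0 * n ≤ (b0 + f0) * n := Nat.mul_le_mul_right n hE
      nlinarith)) hν0 hν
  refine ⟨max Q 1, fun p q v hq hdvd hle => ?_⟩
  have hq1 : (1 : ℝ) < q := (le_max_right _ _).trans_lt hq
  have hqQ : Q < q := (le_max_left _ _).trans_lt hq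
  have hq0 : (0 : ℝ) < q := by linarith
  have hqn : 0 < q := by exact_mod_cast hq0
  have hlogq : 0 < Real.log q := Real.log_pos hq1
  have haR : (0 : ℝ) < a := by exact_mod_cast ha
  have hlog : v0 ≠ 0 → (a : ℝ) * Real.log q ≤ b * v * Real.log 2 := by
    intro hv00
    have hle := hle.resolve_left hv00
    have h4 : ((q : ℝ) ^ a) ≤ 2 ^ (b * v) := by exact_mod_cast hle
    have h5 := Real.log_le_log (by positivity) h4
    rw [Real.log_pow, Real.log_pow] at h5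
    push_cast at h5
    exact h5
  have hn : v0 * ⌊ν * Real.log q / (W * cu)⌋₊ ≤ v := by
    rcases Nat.eq_zero_or_pos v0 with hz | hz
    · rw [hz, Nat.zero_mul]
      exact Nat.zero_le _
    have hlog := hlog hz.ne'
    have h6 : (⌊ν * Real.log q / (W * cu)⌋₊ : ℝ) ≤ ν * Real.log q / (W * cu) :=
      Nat.floor_le (by positivity)
    have h7 : (v0 : ℝ) * (ν * Real.log q / (W * cu)) ≤ v := by
      rw [← mul_div_assoc, div_le_iff₀ hw]
      have h8 : (a : ℝ) * ((v0 : ℝ) * (ν * Real.log q)) ≤ a * (v * (W * cu)) := by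
        have h9 : (v0 : ℝ) * ν * (a * Real.log q) ≤ (v0 : ℝ) * ν * (b * v * Real.log 2) :=
          mul_le_mul_of_nonneg_left hlog (by positivity)
        have h10 : ((v0 : ℝ) * ν * b * 2 ^ 20) * (v * Real.log 2) ≤ (a * W) * (v * Real.log 2) :=
          mul_le_mul_of_nonneg_right hv (by positivity)
        have e1 : cu * 2 ^ 20 = Real.log 2 := by unfold cu; field_simp
        have e2 : (a : ℝ) * (v * (W * cu)) * 2 ^ 20 = (a * W) * (v * Real.log 2) := by
          rw [← e1]; ring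
        nlinarith
      exact le_of_mul_le_mul_left h8 haR
    have h11 : ((v0 * ⌊ν * Real.log q / (W * cu)⌋₊ : ℕ) : ℝ) ≤ v := by
      push_cast
      exact (mul_le_mul_of_nonneg_left h6 (Nat.cast_nonneg _)).trans h7
    exact_mod_cast h11
  have hd : (2 : ℤ) ^ (v0 * ⌊ν * Real.log ((q : ℤ) : ℝ) / (W * cu)⌋₊) ∣ (q : ℤ) := by
    have h12 : (2 : ℕ) ^ (v0 * ⌊ν * Real.log q / (W * cu)⌋₊) ∣ q :=
      (pow_dvd_pow 2 hn).trans hdvd
    have h13 := Int.natCast_dvd_natCast.2 h12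
    push_cast at h13 ⊢
    exact h13
  have := hQ p q (by exact_mod_cast hqn) (by exact_mod_cast hqQ) hd
  push_cast at this
  exact this

end Vale.Agent.P021.R2.H691
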