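import Vale.Agent.P021.R2.H691.OddLoc

/-!
# The arithmetic lower bound, denominators with given prime divisors
-/

set_option autoImplicit false

namespace Vale.Agent.P021.R2.H691

open Vale.Agent.P021.R2.H636 Vale.Agent.P021.R2.H542
open Filter Topology Finset

open Classical in
/-- the sum over the primes which do not divide the denominator -/
lemma sum_not_dvd {φ : ℝ → ℝ} (hφ0 : ∀ y, 0 ≤ φ y) {C0 k1 y0 : ℝ} (hC0 : 0 ≤ C0)
    (hk : ∀ y, 0 ≤ y → y ≤ y0 → k1 ≤ φ y) (R n : ℕ) (hn : 0 < n) (q : ℤ) (P : ℕ)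
    (hsq : Squarefree P) (hPq : (P : ℤ) ∣ q) (hP : ∀ l : ℕ, l.Prime → l ∣ P → (l : ℝ) ≤ y0 * n)
    (hR : y0 * n ≤ R) :
    ∑ l ∈ (Ioc 0 R).filter Nat.Prime,
      (if (l : ℤ) ∣ q then 0 else n * φ ((l : ℝ) / n) + C0) * Real.log l +
        k1 * (n * Real.log P) ≤
    ∑ l ∈ (Ioc 0 R).filter Nat.Prime, (n * φ ((l : ℝ) / n) + C0) * Real.log l := by
  have hnR : (0 : ℝ) < n := by exact_mod_cast hn
  have hP0 : P ≠ 0 := hsq.ne_zero
  have h1 : Real.log P = ∑ l ∈ P.primeFactors, Real.log l := by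
    have h2 : ((P : ℕ) : ℝ) = ∏ l ∈ P.primeFactors, (l : ℝ) := by
      rw [← Nat.cast_prod, Nat.prod_primeFactors_of_squarefree hsq]
    rw [h2, Real.log_prod]
    intro l hl
    have := (Nat.prime_of_mem_primeFactors hl).pos
    positivity
  have hsub : P.primeFactors ⊆ (Ioc 0 R).filter Nat.Prime := by
    intro l hl
    have hlp := Nat.prime_of_mem_primeFactors hl
    have hld := Nat.dvd_of_mem_primeFactors hl
    rw [Finset.mem_filter, mem_Ioc]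
    refine ⟨⟨hlp.pos, ?_⟩, hlp⟩
    have := (hP l hlp hld).trans hR
    exact_mod_cast this
  have h3 : ∑ l ∈ (Ioc 0 R).filter Nat.Prime,
      (if l ∈ P.primeFactors then k1 * (n * Real.log l) else 0) = k1 * (n * Real.log P) := by
    rw [← Finset.sum_filter, Finset.filter_mem_eq_inter, Finset.inter_eq_right.2 hsub, h1,
      Finset.mul_sum, Finset.mul_sum]
  rw [← h3, ← Finset.sum_add_distrib]
  refine Finset.sum_le_sum fun l hl => ?_
  have hl0 := Real.log_natCast_nonneg l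
  have hφl := hφ0 ((l : ℝ) / n)
  by_cases hlP : l ∈ P.primeFactors
  · have hlp := Nat.prime_of_mem_primeFactors hlP
    have hld := Nat.dvd_of_mem_primeFactors hlP
    have hlq : (l : ℤ) ∣ q := (Int.natCast_dvd_natCast.2 hld).trans hPq
    rw [if_pos hlq, if_pos hlP, zero_mul, zero_add]
    have h4 : k1 ≤ φ ((l : ℝ) / n) := by
      refine hk _ (by positivity) ?_
      rw [div_le_iff₀ hnR]
      exact hP l hlp hld
    have h5 : k1 * (n * Real.log l) ≤ φ ((l : ℝ) / n) * (n * Real.log l) :=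
      mul_le_mul_of_nonneg_right h4 (by positivity)
    have h6 : 0 ≤ C0 * Real.log l := mul_nonneg hC0 hl0
    linarith
  · rw [if_neg hlP, add_zero]
    refine mul_le_mul_of_nonneg_right ?_ hl0
    split_ifs
    · positivity
    · exact le_rfl

/-- **The arithmetic lower bound**: `Hyp n q` is the hypothesis on the denominator. -/
theorem arith_lower_genP (K0 b0 f0 E0 : ℕ) {φ : ℝ → ℝ} {Λ C0 c2 k1 y0 : ℝ} (hφ0 : ∀ y, 0 ≤ φ y)
    (hΛ : 0 ≤ Λ) (hLip : ∀ x y, |φ x - φ y| ≤ Λ * |x - y|) (hC0 : 0 ≤ C0)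
    (hk : ∀ y, 0 ≤ y → y ≤ y0 → k1 ≤ φ y) (hy0 : y0 ≤ 2 * E0 + 2 * K0 + b0 + f0)
    (Hyp : ℕ → ℤ → Prop)
    (hloc : ∀ n κ : ℕ, 0 < n → κ ≤ 2 → ∀ (p q : ℤ), 0 < q → Hyp n q → ∀ l : ℕ, l.Prime → l ≠ 2 →
      rg (b0 * n) (f0 * n) (E0 * n) (K0 * n + κ) < l ^ 2 →
      ∃ e : ℕ, padicNorm l (NN (b0 * n) (f0 * n) (E0 * n) (K0 * n + κ) p q) ≤ (l : ℚ) ^ e ∧
        (e : ℝ) ≤ n * φ ((l : ℝ) / n) + C0)
    (hT : ∀ ε : ℝ, 0 < ε → ∀ᶠ n : ℕ in Filter.atTop, ∀ κ ≤ 2, ∀ p q : ℤ, 0 < q → Hyp n q →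
      NN (b0 * n) (f0 * n) (E0 * n) (K0 * n + κ) p q ≠ 0 →
      Real.log ((padicNorm 2 (NN (b0 * n) (f0 * n) (E0 * n) (K0 * n + κ) p q) : ℚ) : ℝ) ≤
        (c2 + ε) * (n : ℝ) ^ 2) :
    ∀ ε : ℝ, 0 < ε → ∀ᶠ n : ℕ in atTop, ∀ κ ≤ 2, ∀ p q : ℤ, 0 < q → Hyp n q → ∀ P : ℕ,
      Squarefree P → (P : ℤ) ∣ q → (∀ l : ℕ, l.Prime → l ∣ P → (l : ℝ) ≤ y0 * n) →
      (HM ((p : ℝ) / q) (b0 * n) (f0 * n) (E0 * n) (K0 * n + κ)).det ≠ 0 →
      Real.exp (-(((∫ y in (0 : ℝ)..XE K0 b0 f0 E0, φ y) + c2) + ε) * (n : ℝ) ^ 2 +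
          k1 * (n * Real.log P)) ≤
        (q : ℝ) ^ (K0 * n + κ) *
          |(HM ((p : ℝ) / q) (b0 * n) (f0 * n) (E0 * n) (K0 * n + κ)).det| := by
  classical
  intro ε hε
  set X : ℝ := XE K0 b0 f0 E0 with hXdef
  have hX1 : 1 ≤ X := XE_pos K0 b0 f0 E0
  have hX0 : 0 < X := by linarith only [hX1]
  set η : ℝ := ε / (8 * (K0 + 2) * X) with hη
  have hη0 : 0 < η := by positivity
  have hη1 : 2 * ((K0 + 2) * (η * X)) = ε / 4 := by rw [hη]; field_simp; norm_num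
  have hl2 : 0 < Real.log 2 := Real.log_pos (by norm_num)
  have hl4 : 0 < Real.log 4 := Real.log_pos (by norm_num)
  set B : ℝ := C0 * (Real.log 4 * X) + (K0 + 2) * Real.log 2 with hB
  have hB0 : 0 ≤ B := by rw [hB]; positivity
  obtain ⟨N0, hN0⟩ := exists_nat_gt (4 * B / ε)
  filter_upwards [Det.psum_le_integral (φ := φ) hX0 hΛ hLip (by positivity : 0 < ε / 4),
    Det.sqrt_log_small hX0 hη0, hT (ε / 4) (by positivity),
    eventually_ge_atTop (N0 + 13)] with n hn1 hn2 hnT hn3 κ hκ p q hq hyp P hsq hPq hP hdet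
  have hn13 : 13 ≤ n := by omega
  have hnR : (1 : ℝ) ≤ n := by
    have : 1 ≤ n := by omega
    exact_mod_cast this
  have hnB : B * n ≤ ε / 4 * n ^ 2 :=
    Det.bn_le hε hN0 (by exact_mod_cast (by omega : N0 ≤ n)) hnR
  have hκR : (κ : ℝ) ≤ 2 := by exact_mod_cast hκ
  have hqR : (0 : ℝ) < q := by exact_mod_cast hq
  have hNN := NN_eq (b0 * n) (f0 * n) (E0 * n) (K0 * n + κ) p q hq
  have hNNR : ((NN (b0 * n) (f0 * n) (E0 * n) (K0 * n + κ) p q : ℚ) : ℝ) ≠ 0 := by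
    rw [hNN]
    exact mul_ne_zero (pow_pos (by linarith only [hqR]) _).ne' hdet
  have hNN0 : NN (b0 * n) (f0 * n) (E0 * n) (K0 * n + κ) p q ≠ 0 := by
    exact_mod_cast hNNR
  have h3 := log_NN_geE (fun l => if (l : ℤ) ∣ q then 0 else n * φ ((l : ℝ) / n) + C0) _ _ _ _ _
    p q hq
    (fun l => by
      have := hφ0 ((l : ℝ) / n)
      split_ifs
      · exact le_rfl
      · positivity)
    (fun l hl h7 hr => by
      split_ifs with hd
      · refine ⟨0, ?_, by simp⟩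
        rw [pow_zero]
        exact lo_dvd _ _ _ _ p q l hl h7 hr hd
      · exact hloc n κ (by omega) hκ p q hq hyp l hl h7 hr)
    (hnT κ hκ p q hq hyp hNN0) hNN0
  have h4 := sum_phi_leE hφ0 hC0 K0 b0 f0 E0 n κ hn13 hκ
  have h7 := rg_le K0 b0 f0 E0 n κ hn13 hκ
  have hRg : y0 * n ≤ (rg (b0 * n) (f0 * n) (E0 * n) (K0 * n + κ) : ℝ) := by
    have h8 : (2 * E0 + 2 * K0 + b0 + f0 : ℝ) * n ≤
        (rg (b0 * n) (f0 * n) (E0 * n) (K0 * n + κ) : ℝ) := by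
      unfold rg
      push_cast
      have : (0 : ℝ) ≤ κ := Nat.cast_nonneg _
      nlinarith
    exact (mul_le_mul_of_nonneg_right hy0 (by linarith)).trans h8
  have h5 := sum_not_dvd hφ0 hC0 hk (rg (b0 * n) (f0 * n) (E0 * n) (K0 * n + κ)) n (by omega) q P
    hsq hPq hP hRg
  have hrng1 : (1 : ℝ) ≤ rg (b0 * n) (f0 * n) (E0 * n) (K0 * n + κ) := by
    have : 1 ≤ rg (b0 * n) (f0 * n) (E0 * n) (K0 * n + κ) := by unfold rg; omega
    exact_mod_cast this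
  rw [← hXdef] at h7 h4
  have h12 : ((K0 * n + κ : ℕ) : ℝ) ≤ (K0 + 2) * n := Det.kk_le hnR hκR
  have h8 : 2 * ((Real.sqrt (rg (b0 * n) (f0 * n) (E0 * n) (K0 * n + κ)) + 7) *
      (((K0 * n + κ : ℕ) : ℝ) * Real.log (rg (b0 * n) (f0 * n) (E0 * n) (K0 * n + κ)))) ≤
      ε / 4 * n ^ 2 := by
    have h13 := Det.mid_le hrng1 h7 (Nat.cast_nonneg (K0 * n + κ)) h12 hn2
    have h14 : 2 * (((K0 : ℝ) + 2) * n * (η * (X * n))) = (2 * ((K0 + 2) * (η * X))) * n ^ 2 := by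
      ring
    rw [hη1] at h14
    rw [← h14]
    linarith only [h13]
  have h9 : (n : ℝ) * Det.psum φ n X ≤
      (∫ y in (0 : ℝ)..X, φ y) * n ^ 2 + ε / 4 * n ^ 2 := by
    refine (mul_le_mul_of_nonneg_left hn1 (zero_le_one.trans hnR)).trans (le_of_eq ?_)
    ring
  have hlogeq := log_NN_eqE (b0 * n) (f0 * n) (E0 * n) (K0 * n + κ) p q hq hdet
  have hfin : -(((∫ y in (0 : ℝ)..X, φ y) + c2) + ε) * (n : ℝ) ^ 2 + k1 * (n * Real.log P) ≤
      Real.log ((q : ℝ) ^ (K0 * n + κ) *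
          |(HM ((p : ℝ) / q) (b0 * n) (f0 * n) (E0 * n) (K0 * n + κ)).det|) := by
    have e2 : C0 * (Real.log 4 * (X * n)) + ((K0 * n + κ : ℕ) : ℝ) * Real.log 2 ≤ B * n := by
      rw [hB]
      have := mul_le_mul_of_nonneg_right h12 hl2.le
      linarith only [this]
    rw [hlogeq] at h3
    linarith only [hnB, h3, h4, h5, h8, h9, e2]
  exact (Real.le_log_iff_exp_le (mul_pos (pow_pos hqR _) (abs_pos.2 hdet))).1 hfin

end Vale.Agent.P021.R2.H691
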