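import Vale.Agent.P021.R2.H691.OddFinal
import Vale.Agent.PNT.Main

/-!
# Denominators divisible by all small odd primes; sums of fractions with small denominators
-/

set_option autoImplicit false

namespace Vale.Agent.P021.R2.H691

open Vale.Agent.P021.Det (cu)
open Filter Topology

theorem wcu_gt : (3628799 : ℝ) < 5489559354084 * cu := by
  have hl := Real.log_two_gt_d9
  have e1 : Real.log 2 = 2 ^ 20 * cu := by unfold cu; field_simp
  rw [e1] at hl
  linarith

/-- all odd primes up to `(5/8) log q` divide `q` -/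
theorem odd1 : ∃ Q : ℝ, ∀ (p : ℤ) (q : ℕ), Q < q →
    (∀ l : ℕ, l.Prime → l ≠ 2 → (l : ℝ) ≤ 5 / 8 * Real.log q → l ∣ q) →
    (q : ℝ) ^ (-(2.53 : ℝ)) < |Real.pi - (p : ℝ) / (q : ℝ)| := by
  obtain ⟨Q, hQ⟩ := main_odd 0 2.53 (by norm_num) (by norm_num) (by norm_num)
  refine ⟨max Q 1, fun p q hq h => ?_⟩
  have hq1 : (1 : ℝ) < q := (le_max_right _ _).trans_lt hq
  have hqn : 0 < q := by
    have : (0 : ℝ) < q := by linarith
    exact_mod_cast this
  have hL : 0 < Real.log q := Real.log_pos hq1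
  have hw := wcu_gt
  have hw0 : (0 : ℝ) < 5489559354084 * cu := by linarith
  have := hQ p q (by exact_mod_cast hqn) (by
    push_cast
    exact (le_max_left _ _).trans_lt hq) ⟨by simp, fun l hl h2 hle => by
      refine Int.natCast_dvd_natCast.2 (h l hl h2 (hle.trans ?_))
      push_cast
      have h6 : ((⌊2.53 * Real.log q / (5489559354084 * cu)⌋₊ : ℕ) : ℝ) ≤
          2.53 * Real.log q / (5489559354084 * cu) := Nat.floor_le (by positivity)
      have h7 : 2.53 * Real.log q / (5489559354084 * cu) ≤ 2.53 * Real.log q / 3628799 :=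
        div_le_div_of_nonneg_left (by positivity) (by norm_num) hw.le
      linarith⟩
  push_cast at this
  exact this

/-- all odd primes up to `(5/8) log q` and a power of 2 divide `q` -/
theorem odd2 : ∃ Q : ℝ, ∀ (p : ℤ) (q v : ℕ), Q < q → 2 ^ v ∣ q → q ^ 3 ≤ 2 ^ (16 * v) →
    (∀ l : ℕ, l.Prime → l ≠ 2 → (l : ℝ) ≤ 5 / 8 * Real.log q → l ∣ q) →
    (q : ℝ) ^ (-(2.45 : ℝ)) < |Real.pi - (p : ℝ) / (q : ℝ)| := by
  obtain ⟨Q, hQ⟩ := main_odd 392000 2.45 (by norm_num) (by norm_num) (by norm_num)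
  refine ⟨max Q 1, fun p q v hq hdvd hle3 h => ?_⟩
  have hq1 : (1 : ℝ) < q := (le_max_right _ _).trans_lt hq
  have hq0 : (0 : ℝ) < q := by linarith
  have hqn : 0 < q := by exact_mod_cast hq0
  have hL : 0 < Real.log q := Real.log_pos hq1
  have hw := wcu_gt
  have hw0 : (0 : ℝ) < 5489559354084 * cu := by linarith
  have h6 : ((⌊2.45 * Real.log q / (5489559354084 * cu)⌋₊ : ℕ) : ℝ) ≤
      2.45 * Real.log q / (5489559354084 * cu) := Nat.floor_le (by positivity)
  have h7 : 2.45 * Real.log q / (5489559354084 * cu) ≤ 2.45 * Real.log q / 3628799 :=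
    div_le_div_of_nonneg_left (by positivity) (by norm_num) hw.le
  have := hQ p q (by exact_mod_cast hqn) (by
    push_cast
    exact (le_max_left _ _).trans_lt hq) ⟨by
      have h4 : ((q : ℝ) ^ 3) ≤ 2 ^ (16 * v) := by exact_mod_cast hle3
      have h5 := Real.log_le_log (by positivity) h4
      rw [Real.log_pow, Real.log_pow] at h5
      push_cast at h5
      have hl2 := Real.log_two_lt_d9
      have hv0 : (0 : ℝ) ≤ v := Nat.cast_nonneg v
      have h8 : 3 * Real.log q ≤ 16 * v * 0.6931471808 :=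
        h5.trans (mul_le_mul_of_nonneg_left hl2.le (by positivity))
      have h9 : ((392000 * ⌊2.45 * Real.log q / (5489559354084 * cu)⌋₊ : ℕ) : ℝ) ≤ v := by
        push_cast
        linarith
      have h10 : 392000 * ⌊2.45 * Real.log q / (5489559354084 * cu)⌋₊ ≤ v := by exact_mod_cast h9
      have h11 : (2 : ℕ) ^ (392000 * ⌊2.45 * Real.log q / (5489559354084 * cu)⌋₊) ∣ q :=
        (pow_dvd_pow 2 h10).trans hdvd
      have h12 := Int.natCast_dvd_natCast.2 h11
      push_cast at h12 ⊢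
      exact h12, fun l hl h2 hle => by
      refine Int.natCast_dvd_natCast.2 (h l hl h2 (hle.trans ?_))
      push_cast
      linarith⟩
  push_cast at this
  exact this

/-- the denominators `lcm(1, …, m)` -/
theorem lcm_bound : ∃ M : ℕ, ∀ m : ℕ, M ≤ m → ∀ p : ℤ,
    Real.exp (-(2.54 * m)) < |Real.pi - p / (Nat.lcmUpto m : ℝ)| ∧
    Real.exp (-(1.54 * m)) < |Real.pi * (Nat.lcmUpto m : ℝ) - p| := by
  obtain ⟨Q, hQ⟩ := odd1
  have h1 := Vale.Agent.PNT.log_lcmUpto_div_tendsto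
  have h2 : ∀ᶠ m : ℕ in atTop, Real.log (Nat.lcmUpto m) / m < 1.003 :=
    h1.eventually (gt_mem_nhds (by norm_num))
  have h3 : ∀ᶠ m : ℕ in atTop, (0.9 : ℝ) < Real.log (Nat.lcmUpto m) / m :=
    h1.eventually (lt_mem_nhds (by norm_num))
  obtain ⟨N, hN⟩ := exists_nat_gt (Real.log (max Q 1) / 0.9)
  obtain ⟨M, hM⟩ := eventually_atTop.mp (h2.and (h3.and ((eventually_ge_atTop N).and
    (eventually_gt_atTop 0))))
  refine ⟨M, fun m hm p => ?_⟩
  obtain ⟨g1, g2, g3, g4⟩ := hM m hm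
  have hmR : (0 : ℝ) < m := by exact_mod_cast g4
  rw [div_lt_iff₀ hmR] at g1
  rw [lt_div_iff₀ hmR] at g2
  have hd0 : (0 : ℝ) < (Nat.lcmUpto m : ℝ) := by exact_mod_cast Nat.lcmUpto_pos m
  have hNm : (N : ℝ) ≤ m := by exact_mod_cast g3
  have h5 : Real.log (max Q 1) < Real.log (Nat.lcmUpto m) := by
    rw [div_lt_iff₀ (by norm_num)] at hN
    linarith
  have h6 : max Q 1 < (Nat.lcmUpto m : ℝ) :=
    (Real.log_lt_log_iff (lt_of_lt_of_le one_pos (le_max_right _ _)) hd0).1 h5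
  have h7 := hQ p (Nat.lcmUpto m) ((le_max_left _ _).trans_lt h6) (fun l hl _ hle => by
    have h8 : (l : ℝ) ≤ m := by linarith
    have h9 : l ≤ m := by exact_mod_cast h8
    exact Finset.dvd_lcm (f := id) (Finset.mem_Icc.2 ⟨hl.one_lt.le, h9⟩))
  rw [Real.rpow_def_of_pos hd0] at h7
  refine ⟨lt_of_le_of_lt (Real.exp_le_exp.2 (by linarith)) h7, ?_⟩
  have h10 : |Real.pi * (Nat.lcmUpto m : ℝ) - p| =
      (Nat.lcmUpto m : ℝ) * |Real.pi - p / (Nat.lcmUpto m : ℝ)| := by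
    rw [← abs_of_pos hd0, ← abs_mul, abs_of_pos hd0]
    congr 1
    field_simp
  rw [h10]
  calc Real.exp (-(1.54 * m)) ≤ Real.exp (Real.log (Nat.lcmUpto m)) *
        Real.exp (Real.log (Nat.lcmUpto m) * -2.53) := by
        rw [← Real.exp_add]
        exact Real.exp_le_exp.2 (by linarith)
    _ = (Nat.lcmUpto m : ℝ) * Real.exp (Real.log (Nat.lcmUpto m) * -2.53) := by
        rw [Real.exp_log hd0]
    _ < _ := mul_lt_mul_of_pos_left h7 hd0

/-- sums of fractions with denominators at most `m` -/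
theorem sum_bound : ∃ M : ℕ, ∀ m : ℕ, M ≤ m → ∀ a : ℕ → ℤ,
    Real.exp (-(2.54 * m)) < |Real.pi - ∑ j ∈ Finset.Icc 1 m, (a j : ℝ) / (j : ℝ)| := by
  obtain ⟨M, hM⟩ := lcm_bound
  refine ⟨M, fun m hm a => ?_⟩
  have hd0 : (0 : ℝ) < (Nat.lcmUpto m : ℝ) := by exact_mod_cast Nat.lcmUpto_pos m
  have h := (hM m hm (∑ j ∈ Finset.Icc 1 m, a j * ((Nat.lcmUpto m / j : ℕ) : ℤ))).1
  refine h.trans_le (le_of_eq ?_)
  congr 2
  rw [Int.cast_sum, Finset.sum_div]
  refine Finset.sum_congr rfl fun j hj => ?_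
  rw [Finset.mem_Icc] at hj
  have hj0 : (j : ℝ) ≠ 0 := by
    have : 0 < j := hj.1
    positivity
  have hd : j ∣ Nat.lcmUpto m := Finset.dvd_lcm (f := id) (Finset.mem_Icc.2 hj)
  rw [Int.cast_mul, Int.cast_natCast, Nat.cast_div hd hj0]
  field_simp

end Vale.Agent.P021.R2.H691
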