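import Vale.Agent.P021.R2.H691.OddGen
import Vale.Agent.P021.R2.H691.OddSums

/-!
# Denominators with many small prime factors: final forms
-/

set_option autoImplicit false

namespace Vale.Agent.P021.R2.H691

open Vale.Agent.P021.Det (cu)
open Filter Topology

theorem wcu_lt : 5489559354084 * cu < (3628801 : ℝ) := by
  have hl := Real.log_two_lt_d9
  have e1 : Real.log 2 = 2 ^ 20 * cu := by unfold cu; field_simp
  rw [e1] at hl
  linarith

/-- the floor -/
theorem floor_small {L ν : ℝ} (hL : 10 ^ 8 < L) (hν : 5.122 ≤ ν) :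
    3 / 8 * L ≤ 275200 * (⌊ν * L / (5489559354084 * cu)⌋₊ : ℝ) := by
  have hw := wcu_lt
  have hw0 : (0 : ℝ) < 5489559354084 * cu := by
    have := wcu_gt
    linarith
  have h1 : ν * L / (5489559354084 * cu) < (⌊ν * L / (5489559354084 * cu)⌋₊ : ℝ) + 1 :=
    Nat.lt_floor_add_one _
  have h2 : 5.122 * L / 3628801 ≤ ν * L / (5489559354084 * cu) := by
    refine div_le_div₀ (by positivity) (mul_le_mul_of_nonneg_right hν (by linarith)) hw0 hw.le
  linarith

/-- squarefree divisors with small prime factors -/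
theorem odd3 : ∃ Q : ℝ, ∀ (p : ℤ) (q P : ℕ), Squarefree P → P ∣ q → Q < (q : ℝ) / P →
    (∀ l : ℕ, l.Prime → l ∣ P → (l : ℝ) ≤ 3 / 8 * Real.log ((q : ℝ) / P)) →
    ((q : ℝ) / P) ^ (-(5.48 : ℝ)) < |Real.pi - (p : ℝ) / (q : ℝ)| := by
  obtain ⟨Q, hQ⟩ := main_P 0 5.48 (by norm_num) (by norm_num) (by norm_num)
  refine ⟨max Q (Real.exp (10 ^ 8)), fun p q P hsq hPq hq hl => ?_⟩
  have hr0 : (0 : ℝ) < (q : ℝ) / P := (Real.exp_pos _).trans ((le_max_right _ _).trans_lt hq)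
  have hP0 : (0 : ℝ) < P := by exact_mod_cast Nat.pos_of_ne_zero hsq.ne_zero
  have hq0 : (0 : ℝ) < q := by
    by_contra h
    have h1 : (q : ℝ) / P ≤ 0 := div_nonpos_of_nonpos_of_nonneg (not_lt.1 h) hP0.le
    linarith
  have hL : (10 : ℝ) ^ 8 < Real.log ((q : ℝ) / P) :=
    (Real.lt_log_iff_exp_lt hr0).2 ((le_max_right _ _).trans_lt hq)
  have hqn : 0 < q := by exact_mod_cast hq0
  have := hQ p q P (by exact_mod_cast hqn) hsq (Int.natCast_dvd_natCast.2 hPq) (by
    push_cast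
    exact (le_max_left _ _).trans_lt hq) (by simp) (fun l hlp hld => by
      push_cast
      exact (hl l hlp hld).trans (floor_small hL (by norm_num)))
  push_cast at this
  exact this

/-- squarefree divisors with small prime factors, and a power of 2 -/
theorem odd4 : ∃ Q : ℝ, ∀ (p : ℤ) (q P v : ℕ), Squarefree P → P ∣ q → Q < (q : ℝ) / P →
    (∀ l : ℕ, l.Prime → l ∣ P → (l : ℝ) ≤ 3 / 8 * Real.log ((q : ℝ) / P)) →
    2 ^ v ∣ q → q ^ 2 ≤ 2 ^ (5 * v) →
    ((q : ℝ) / P) ^ (-(5.122 : ℝ)) < |Real.pi - (p : ℝ) / (q : ℝ)| := by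
  obtain ⟨Q, hQ⟩ := main_P 392000 5.122 (by norm_num) (by norm_num) (by norm_num)
  refine ⟨max Q (Real.exp (10 ^ 8)), fun p q P v hsq hPq hq hl hdvd hle2 => ?_⟩
  have hr0 : (0 : ℝ) < (q : ℝ) / P := (Real.exp_pos _).trans ((le_max_right _ _).trans_lt hq)
  have hP1 : (1 : ℝ) ≤ P := by exact_mod_cast Nat.pos_of_ne_zero hsq.ne_zero
  have hP0 : (0 : ℝ) < P := by linarith
  have hq0 : (0 : ℝ) < q := by
    by_contra h
    have h1 : (q : ℝ) / P ≤ 0 := div_nonpos_of_nonpos_of_nonneg (not_lt.1 h) hP0.le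
    linarith
  have hL : (10 : ℝ) ^ 8 < Real.log ((q : ℝ) / P) :=
    (Real.lt_log_iff_exp_lt hr0).2 ((le_max_right _ _).trans_lt hq)
  have hLq : Real.log ((q : ℝ) / P) ≤ Real.log q :=
    Real.log_le_log hr0 (div_le_self hq0.le hP1)
  have hqn : 0 < q := by exact_mod_cast hq0
  have hw := wcu_gt
  have hw0 : (0 : ℝ) < 5489559354084 * cu := by linarith
  have hL0 : 0 < Real.log ((q : ℝ) / P) := by linarith [hL, (by norm_num : (0 : ℝ) < 10 ^ 8)]
  have h6 : ((⌊5.122 * Real.log ((q : ℝ) / P) / (5489559354084 * cu)⌋₊ : ℕ) : ℝ) ≤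
      5.122 * Real.log ((q : ℝ) / P) / (5489559354084 * cu) := Nat.floor_le (by positivity)
  have h7 : 5.122 * Real.log ((q : ℝ) / P) / (5489559354084 * cu) ≤
      5.122 * Real.log ((q : ℝ) / P) / 3628799 :=
    div_le_div_of_nonneg_left (by positivity) (by norm_num) hw.le
  have h4 : ((q : ℝ) ^ 2) ≤ 2 ^ (5 * v) := by exact_mod_cast hle2
  have h5 := Real.log_le_log (by positivity) h4
  rw [Real.log_pow, Real.log_pow] at h5
  push_cast at h5
  have hl2 := Real.log_two_lt_d9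
  have hv0 : (0 : ℝ) ≤ v := Nat.cast_nonneg v
  have h8 : 2 * Real.log q ≤ 5 * v * 0.6931471808 :=
    h5.trans (mul_le_mul_of_nonneg_left hl2.le (by positivity))
  have h9 : ((392000 * ⌊5.122 * Real.log ((q : ℝ) / P) / (5489559354084 * cu)⌋₊ : ℕ) : ℝ) ≤ v := by
    push_cast
    linarith
  have h10 : 392000 * ⌊5.122 * Real.log ((q : ℝ) / P) / (5489559354084 * cu)⌋₊ ≤ v := by
    exact_mod_cast h9
  have h11 : (2 : ℕ) ^ (392000 * ⌊5.122 * Real.log ((q : ℝ) / P) / (5489559354084 * cu)⌋₊) ∣ q :=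
    (pow_dvd_pow 2 h10).trans hdvd
  have h12 := Int.natCast_dvd_natCast.2 h11
  have := hQ p q P (by exact_mod_cast hqn) hsq (Int.natCast_dvd_natCast.2 hPq) (by
    push_cast
    exact (le_max_left _ _).trans_lt hq) (by
      push_cast at h12 ⊢
      exact h12) (fun l hlp hld => by
      push_cast
      exact (hl l hlp hld).trans (floor_small hL le_rfl))
  push_cast at this
  exact this

end Vale.Agent.P021.R2.H691
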