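import Vale.Agent.P021.R2.H691.OddCore
import Vale.Agent.P021.R2.H691.OddArith
import Vale.Agent.P021.R2.H691.Final

/-!
# Denominators with given prime divisors: the constants
-/

set_option autoImplicit false

namespace Vale.Agent.P021.R2.H691

open Vale.Agent.P021.Det (cu)
open Vale.Agent.P021.R2.H636 Vale.Agent.P021.R2.H542 Vale.Agent.P021.R2.H120
open Filter Topology

/-- no cost beyond `2 E` -/
theorem phiW_zero {y : ℝ} (hy : 896000 ≤ y) : phiW 336000 656000 448000 384000 y = 0 := by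
  refine le_antisymm ?_ (phiW_nonneg (by norm_num))
  refine (min_le_right _ _).trans ((min_le_left _ _).trans ?_)
  unfold plainF
  rw [max_eq_right (by linarith), max_eq_right (by linarith)]
  norm_num

/-- full cost at the small primes -/
theorem le_phiW {y : ℝ} (_hy0 : 0 ≤ y) (hy : y ≤ 275200) :
    384000 ≤ phiW 336000 656000 448000 384000 y := by
  unfold phiW plainF winF
  refine le_min le_rfl (le_min ?_ ?_)
  · have h1 := le_max_left (2 * 448000 - y) 0
    have h2 := le_max_left (2 * 384000 + 336000 + 656000 - 2 * 448000 - y) 0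
    linarith
  · have h1 := le_max_right (y - 336000) 0
    have h2 := le_max_right (2 * y - 656000) 0
    have h3 := le_max_left (2 * 448000 - 3 * y) 0
    have h4 := le_max_left y 0
    have h5 := le_max_left (2 * 384000 + 336000 + 656000 - 2 * 448000 - 3 * y) 0
    linarith

/-- the odd part of the arithmetic cost vanishes if all odd primes up to `896000 n` divide the
denominator -/
def HypO (v0 : ℕ) (n : ℕ) (q : ℤ) : Prop :=
  (2 : ℤ) ^ (v0 * n) ∣ q ∧ ∀ l : ℕ, l.Prime → l ≠ 2 → (l : ℝ) ≤ 896000 * n → (l : ℤ) ∣ q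

theorem arith_odd (v0 : ℕ) (hv : 2 * v0 ≤ 784000) :
    ∀ ε : ℝ, 0 < ε → ∀ᶠ n : ℕ in atTop, ∀ κ ≤ 2, ∀ p q : ℤ, 0 < q → HypO v0 n q → ∀ P : ℕ,
      Squarefree P → (P : ℤ) ∣ q → (∀ l : ℕ, l.Prime → l ∣ P → (l : ℝ) ≤ 0 * n) →
      (HM ((p : ℝ) / q) (336000 * n) (656000 * n) (448000 * n) (384000 * n + κ)).det ≠ 0 →
      Real.exp (-((784000 - 2 * (v0 : ℝ)) ^ 2 / 24 * Real.log 2 + ε) * (n : ℝ) ^ 2 +
          ((384000 : ℕ) : ℝ) * (n * Real.log P)) ≤
        (q : ℝ) ^ (384000 * n + κ) *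
          |(HM ((p : ℝ) / q) (336000 * n) (656000 * n) (448000 * n) (384000 * n + κ)).det| := by
  have hT := twoBoundR 384000 336000 656000 448000 v0 (by omega)
  have h := arith_lower_genP 384000 336000 656000 448000 (φ := fun _ => 0) (Λ := 0) (C0 := 100)
    (c2 := (4 * ((448000 : ℕ) : ℝ) - 3 * ((336000 : ℕ) : ℝ) - 2 * v0) ^ 2 / 24 * Real.log 2)
    (k1 := 0) (y0 := 0) (fun _ => le_rfl) le_rfl (fun x y => by simp) (by norm_num)
    (fun _ _ _ => le_rfl) (by norm_num) (HypO v0)
    (fun n κ hn hκ p q hq hyp l hl h2 hr => by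
      by_cases hle : (l : ℝ) ≤ 896000 * n
      · refine ⟨0, ?_, by simp⟩
        rw [pow_zero]
        exact lo_dvd _ _ _ _ p q l hl h2 hr (hyp.2 l hl h2 hle)
      · obtain ⟨e, he1, he2⟩ := loc_phiW 384000 336000 656000 448000 n κ hn hκ p q hq l hl h2 hr
        refine ⟨e, he1, he2.trans ?_⟩
        have hnR : (0 : ℝ) < n := by exact_mod_cast hn
        have h5 : (896000 : ℝ) ≤ (l : ℝ) / n := by
          rw [le_div_iff₀ hnR]
          exact (not_le.1 hle).le
        have h6 := phiW_zero h5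
        push_cast
        rw [h6])
    (fun ε hε => by
      filter_upwards [hT ε hε] with n hn κ hκ p q hq hyp hne
      exact hn κ hκ p q hq hyp.1 hne)
  intro ε hε
  filter_upwards [h ε hε] with n hn κ hκ p q hq hyp P hsq hPq hPl hdet
  have h1 := hn κ hκ p q hq hyp P hsq hPq hPl hdet
  have hP1 : P = 1 := by
    by_contra hne
    obtain ⟨l, hl, hld⟩ := Nat.exists_prime_and_dvd hne
    have := hPl l hl hld
    rw [zero_mul] at this
    have h3 : (0 : ℝ) < l := by exact_mod_cast hl.pos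
    linarith
  rw [hP1] at h1 ⊢
  refine le_trans (Real.exp_le_exp.2 (le_of_eq ?_)) h1
  rw [intervalIntegral.integral_zero]
  push_cast
  rw [Real.log_one]
  ring

theorem main_odd (v0 : ℕ) (ν : ℝ) (hv : 2 * v0 ≤ 784000) (hν0 : 0 < ν)
    (h2 : 5489559354084 * 384000 < ν * (1723423379991074000 / 2 -
      (784000 - 2 * (v0 : ℝ)) ^ 2 / 24 * 2 ^ 20)) :
    ∃ Q : ℝ, ∀ p q : ℤ, 0 < q → Q < (q : ℝ) →
      HypO v0 ⌊ν * Real.log q / (5489559354084 * cu)⌋₊ q →
      (q : ℝ) ^ (-ν) < |Real.pi - (p : ℝ) / (q : ℝ)| := by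
  have hcu : 0 < cu := by unfold cu; positivity
  have hU := Vale.Agent.P021.R2.H626.archUpper
  have e1 : Real.log 2 = 2 ^ 20 * cu := by unfold cu; field_simp
  obtain ⟨Q, hQ⟩ := core_boundP
    (fun n κ x => (HM x (336000 * n) (656000 * n) (448000 * n) (384000 * n + κ)).det) 384000
    (by norm_num) (5489559354084 * cu) ((784000 - 2 * (v0 : ℝ)) ^ 2 / 24 * Real.log 2)
    (((-1723423379991074000 : ℤ) : ℝ) / 2 * cu) ν 0 (by positivity) le_rfl (HypO v0)
    (arith_odd v0 hv) (by
      have := hU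
      unfold ArchUpper at this
      push_cast at this ⊢
      exact this) (fun n x => nonVan x (336000 * n) (656000 * n) (448000 * n) (384000 * n)
        (by omega)) hν0 (by
      have h3 := mul_lt_mul_of_pos_right h2 hcu
      rw [e1]
      push_cast
      refine lt_of_eq_of_lt ?_ (lt_of_lt_of_eq h3 ?_)
      · ring
      · ring)
  refine ⟨Q, fun p q hq0 hqQ hyp => ?_⟩
  have h := hQ p q 1 hq0 squarefree_one (by simp) (by simpa using hqQ) (by simpa using hyp)
    (fun l hl hl1 => absurd (Nat.dvd_one.1 hl1) hl.one_lt.ne')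
  simpa using h

end Vale.Agent.P021.R2.H691
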