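import Vale.Agent.P021.R2.H691.OddFinal

/-!
# Denominators with many small prime factors: the general inequality
-/

set_option autoImplicit false

namespace Vale.Agent.P021.R2.H691

open Vale.Agent.P021.Det (cu)
open Vale.Agent.P021.R2.H636 Vale.Agent.P021.R2.H542 Vale.Agent.P021.R2.H120
open Filter Topology

/-- the integral of the local costs -/
theorem int_phiW_le (K0 b0 f0 E0 : ℕ)
    (hD : |4 * (E0 : ℝ) - 2 * K0 - b0 - f0| ≤ K0) (x0 x1 x2 x3 x4 x5 : ℝ) (h0 : 0 ≤ x0)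
    (h01 : x0 ≤ x1) (h12 : x1 ≤ x2) (h23 : x2 ≤ x3) (h34 : x3 ≤ x4) (h45 : x4 ≤ x5)
    (h5 : x5 ≤ ((K0 : ℝ) + b0 + f0) / 2) :
    ∫ y in (0 : ℝ)..XE K0 b0 f0 E0, phiW b0 f0 E0 K0 y ≤
      cwinE K0 b0 f0 E0 x0 x1 x2 x3 x4 x5 := by
  have hK0 : (0 : ℝ) ≤ K0 := Nat.cast_nonneg _
  have hb0 : (0 : ℝ) ≤ b0 := Nat.cast_nonneg _
  have hf0 : (0 : ℝ) ≤ f0 := Nat.cast_nonneg _
  have hE0 : (0 : ℝ) ≤ E0 := Nat.cast_nonneg _
  have hc := continuous_phiW (b0 : ℝ) f0 E0 K0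
  have hsplit : ∫ y in (0 : ℝ)..XE K0 b0 f0 E0, phiW b0 f0 E0 K0 y =
      (∫ y in (0 : ℝ)..x0, phiW b0 f0 E0 K0 y) + (∫ y in x0..x1, phiW b0 f0 E0 K0 y) +
      (∫ y in x1..x2, phiW b0 f0 E0 K0 y) + (∫ y in x2..x3, phiW b0 f0 E0 K0 y) +
      (∫ y in x3..x4, phiW b0 f0 E0 K0 y) + (∫ y in x4..x5, phiW b0 f0 E0 K0 y) +
      ∫ y in x5..XE K0 b0 f0 E0, phiW b0 f0 E0 K0 y := by
    rw [intervalIntegral.integral_add_adjacent_intervals,
      intervalIntegral.integral_add_adjacent_intervals,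
      intervalIntegral.integral_add_adjacent_intervals,
      intervalIntegral.integral_add_adjacent_intervals,
      intervalIntegral.integral_add_adjacent_intervals,
      intervalIntegral.integral_add_adjacent_intervals] <;>
    exact hc.intervalIntegrable _ _
  have i0 := int_phiW_K (b0 : ℝ) f0 E0 K0 h0
  have i1 := int_phiW_win (b0 : ℝ) f0 E0 K0 h01
  have i2 := int_phiW_win (b0 : ℝ) f0 E0 K0 h12
  have i3 := int_phiW_win (b0 : ℝ) f0 E0 K0 h23
  have i4 := int_phiW_win (b0 : ℝ) f0 E0 K0 h34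
  have i5 := int_phiW_win (b0 : ℝ) f0 E0 K0 h45
  have i6 := int_phiW_plain hc (A := 2 * E0) (B := 2 * K0 + b0 + f0 - 2 * E0) (K := K0)
    (X := XE K0 b0 f0 E0) (a := x5) (fun y => by
      unfold phiW plainF
      exact min_le_min le_rfl (min_le_left _ _)) (by
      refine le_trans (le_of_eq ?_) hD
      congr 1
      ring) (by linarith only [h5]) (by
      unfold XE
      linarith only [hK0, hb0, hf0, hE0]) (by
      unfold XE
      linarith only [hK0, hb0, hf0, hE0])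
  rw [hsplit]
  unfold cwinE cplain
  linarith only [i0, i1, i2, i3, i4, i5, i6]

theorem arith_P (v0 : ℕ) (hv : 2 * v0 ≤ 784000) :
    ∀ ε : ℝ, 0 < ε → ∀ᶠ n : ℕ in atTop, ∀ κ ≤ 2, ∀ p q : ℤ, 0 < q → (2 : ℤ) ^ (v0 * n) ∣ q →
      ∀ P : ℕ, Squarefree P → (P : ℤ) ∣ q → (∀ l : ℕ, l.Prime → l ∣ P → (l : ℝ) ≤ 275200 * n) →
      (HM ((p : ℝ) / q) (336000 * n) (656000 * n) (448000 * n) (384000 * n + κ)).det ≠ 0 →
      Real.exp (-((69739 / 60 * 16000 ^ 2 + (784000 - 2 * (v0 : ℝ)) ^ 2 / 24 * Real.log 2) + ε) *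
          (n : ℝ) ^ 2 + ((384000 : ℕ) : ℝ) * (n * Real.log P)) ≤
        (q : ℝ) ^ (384000 * n + κ) *
          |(HM ((p : ℝ) / q) (336000 * n) (656000 * n) (448000 * n) (384000 * n + κ)).det| := by
  have hT := twoBoundR 384000 336000 656000 448000 v0 (by omega)
  have hI := int_phiW_le 384000 336000 656000 448000 (by norm_num) 275200 288000
    (896000 / 3) 328000 336000 344000
    (by norm_num) (by norm_num) (by norm_num) (by norm_num) (by norm_num) (by norm_num)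
    (by norm_num)
  have h := arith_lower_genP 384000 336000 656000 448000
    (φ := phiW ((336000 : ℕ) : ℝ) ((656000 : ℕ) : ℝ) ((448000 : ℕ) : ℝ) ((384000 : ℕ) : ℝ))
    (Λ := 10) (C0 := 100)
    (c2 := (4 * ((448000 : ℕ) : ℝ) - 3 * ((336000 : ℕ) : ℝ) - 2 * v0) ^ 2 / 24 * Real.log 2)
    (k1 := 384000) (y0 := 275200) (fun _ => phiW_nonneg (Nat.cast_nonneg _)) (by norm_num)
    (fun x y => phiW_lip _ _ _ _ x y) (by norm_num)
    (fun y h1 h2 => by
      have := le_phiW h1 h2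
      push_cast
      exact this) (by norm_num) (fun n q => (2 : ℤ) ^ (v0 * n) ∣ q)
    (fun n κ hn hκ p q hq _ l hl h2 hr =>
      loc_phiW 384000 336000 656000 448000 n κ hn hκ p q hq l hl h2 hr)
    (fun ε hε => hT ε hε)
  intro ε hε
  filter_upwards [h ε hε] with n hn κ hκ p q hq hyp P hsq hPq hPl hdet
  refine le_trans (Real.exp_le_exp.2 ?_) (hn κ hκ p q hq hyp P hsq hPq hPl hdet)
  have e := Vale.Agent.P021.R2.H626.cwin_val
  rw [e] at hI
  have h3 : (0 : ℝ) ≤ (n : ℝ) ^ 2 := by positivity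
  have h4 := mul_le_mul_of_nonneg_right hI h3
  have e2 : (4 * ((448000 : ℕ) : ℝ) - 3 * ((336000 : ℕ) : ℝ) - 2 * v0) ^ 2 / 24 * Real.log 2 =
      (784000 - 2 * (v0 : ℝ)) ^ 2 / 24 * Real.log 2 := by
    push_cast
    ring
  rw [e2]
  push_cast at h4 ⊢
  linarith only [h4]

theorem main_P (v0 : ℕ) (ν : ℝ) (hv : 2 * v0 ≤ 784000) (hν0 : 0 < ν)
    (h2 : 5489559354084 * 384000 < ν * (1723423379991074000 / 2 -
      (69739 / 60 * 16000 ^ 2 / 0.6931471803 + (784000 - 2 * (v0 : ℝ)) ^ 2 / 24) * 2 ^ 20)) :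
    ∃ Q : ℝ, ∀ (p q : ℤ) (P : ℕ), 0 < q → Squarefree P → (P : ℤ) ∣ q → Q < (q : ℝ) / P →
      (2 : ℤ) ^ (v0 * ⌊ν * Real.log ((q : ℝ) / P) / (5489559354084 * cu)⌋₊) ∣ q →
      (∀ l : ℕ, l.Prime → l ∣ P →
        (l : ℝ) ≤ 275200 * ⌊ν * Real.log ((q : ℝ) / P) / (5489559354084 * cu)⌋₊) →
      ((q : ℝ) / P) ^ (-ν) < |Real.pi - (p : ℝ) / (q : ℝ)| := by
  have hcu : 0 < cu := by unfold cu; positivity
  have hU := Vale.Agent.P021.R2.H626.archUpper
  have hl := Real.log_two_gt_d9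
  have e1 : Real.log 2 = 2 ^ 20 * cu := by unfold cu; field_simp
  refine core_boundP
    (fun n κ x => (HM x (336000 * n) (656000 * n) (448000 * n) (384000 * n + κ)).det) 384000
    (by norm_num) (5489559354084 * cu)
    (69739 / 60 * 16000 ^ 2 + (784000 - 2 * (v0 : ℝ)) ^ 2 / 24 * Real.log 2)
    (((-1723423379991074000 : ℤ) : ℝ) / 2 * cu) ν 275200 (by positivity) (by norm_num)
    (fun n q => (2 : ℤ) ^ (v0 * n) ∣ q) (arith_P v0 hv) (by
      have := hU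
      unfold ArchUpper at this
      push_cast at this ⊢
      exact this) (fun n x => nonVan x (336000 * n) (656000 * n) (448000 * n) (384000 * n)
        (by omega)) hν0 ?_
  have e2 : (69739 / 60 * 16000 ^ 2 : ℝ) ≤ 69739 / 60 * 16000 ^ 2 / 0.6931471803 * Real.log 2 := by
    have h5 : (69739 / 60 * 16000 ^ 2 / 0.6931471803 * 0.6931471803 : ℝ) ≤
        69739 / 60 * 16000 ^ 2 / 0.6931471803 * Real.log 2 :=
      mul_le_mul_of_nonneg_left hl.le (by norm_num)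
    have h6 : (69739 / 60 * 16000 ^ 2 / 0.6931471803 * 0.6931471803 : ℝ) =
        69739 / 60 * 16000 ^ 2 := by norm_num
    rw [h6] at h5
    exact h5
  have h3 := mul_lt_mul_of_pos_right h2 hcu
  have h4 : ν * (-(((-1723423379991074000 : ℤ) : ℝ) / 2 * cu) -
      (69739 / 60 * 16000 ^ 2 / 0.6931471803 * Real.log 2 +
        (784000 - 2 * (v0 : ℝ)) ^ 2 / 24 * Real.log 2)) ≤
      ν * (-(((-1723423379991074000 : ℤ) : ℝ) / 2 * cu) -
      (69739 / 60 * 16000 ^ 2 + (784000 - 2 * (v0 : ℝ)) ^ 2 / 24 * Real.log 2)) :=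
    mul_le_mul_of_nonneg_left (by linarith) hν0.le
  refine lt_of_lt_of_le ?_ h4
  rw [e1]
  push_cast
  refine lt_of_eq_of_lt ?_ (lt_of_lt_of_eq h3 ?_)
  · ring
  · ring

end Vale.Agent.P021.R2.H691
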