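import Vale.Agent.P021.R2.H691.Arith

/-!
# Odd primes dividing the denominator
-/

set_option autoImplicit false

open Polynomial Finset

namespace Vale.Agent.P021.R2.H691

open Vale.Agent.P021.R2.H636 Vale.Agent.P021.R2.H542

/-- at an odd prime which divides the denominator there is no pole -/
theorem cK_dvd (l : ℕ) [hl : Fact l.Prime] (h2 : l ≠ 2) (p q : ℤ) (E k : ℕ)
    (hE : 2 * E + k + 1 < l ^ 2) (hq : (l : ℤ) ∣ q) : padicNorm l (cK p q E k) ≤ 1 := by
  have hl0 : (0 : ℚ) < l := by exact_mod_cast hl.out.pos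
  rw [cK_nat]
  refine padicNorm.nonarchimedean.trans (max_le ?_ ?_)
  · rw [padicNorm.mul]
    exact mul_le_one₀ (padicNorm.of_int p) (padicNorm.nonneg _) (mA_norm l k _)
  · have hB : padicNorm l (mB k (-(E : ℤ))) ≤ l := by
      refine mB_norm l k _ l hl0.le (fun hk2 i hi => ?_) (fun hk2 i hi => ?_)
      · apply bq_all l h2
        omega
      · apply cq_all l h2
        omega
    obtain ⟨z, rfl⟩ := hq
    have h3 : (2 * (((l : ℤ) * z : ℤ) : ℚ)) = ((l : ℕ) : ℚ) * ((2 * z : ℤ) : ℚ) := by
      push_cast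
      ring
    rw [h3, padicNorm.mul, padicNorm.mul, padicNorm.padicNorm_p_of_prime]
    have h4 : padicNorm l ((2 * z : ℤ) : ℚ) ≤ 1 := padicNorm.of_int _
    calc (l : ℚ)⁻¹ * padicNorm l ((2 * z : ℤ) : ℚ) * padicNorm l (mB k (-(E : ℤ)))
        ≤ (l : ℚ)⁻¹ * 1 * l := by
          refine mul_le_mul (mul_le_mul_of_nonneg_left h4 (by positivity)) hB
            (padicNorm.nonneg _) (by positivity)
      _ = 1 := by
          rw [mul_one]
          exact inv_mul_cancel₀ hl0.ne'

/-- at an odd prime which divides the denominator the determinant is integral -/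
theorem lo_dvd (b f E K : ℕ) (p q : ℤ) (l : ℕ) (hl : l.Prime) (h2 : l ≠ 2)
    (hr : rg b f E K < l ^ 2) (hq : (l : ℤ) ∣ q) : padicNorm l (NN b f E K p q) ≤ 1 := by
  have hf : Fact l.Prime := ⟨hl⟩
  have h := det_bound b f E K p q l hl (fun i => X ^ i) (fun i _ => monic_X_pow i)
    (fun i _ => natDegree_X_pow i) (fun _ => False) K 1 le_rfl
    ((Finset.card_filter_le _ _).trans (by rw [Finset.card_range]))
    (fun _ _ h => h.elim) ?_
  · rwa [one_pow] at h
  · intro i hi j hj
    have hdeg := row_natDegree b f K (X ^ i) (natDegree_X_pow i) hi hj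
    unfold rg at hr
    exact LE_norm_le l p q E _ _ zero_le_one fun k hk => cK_dvd l h2 p q E k (by omega) hq

end Vale.Agent.P021.R2.H691
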